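import Crest.Agent.H2.RI.FinB

/-! The final step of S0149. -/

set_option autoImplicit false

noncomputable section

namespace Crest.Agent.H2.RI

open MeasureTheory Filter Set Crest.Agent.H2.RP Crest.Agent.H9.RI

def km (L : ℕ) (K : ℝ) : ℝ := L * K + 1 + 2 * (L : ℝ) ^ 2
def WW (L : ℕ) (K : ℝ) : ℝ := L * K + km L K * (L / 2)
def ep (L : ℕ) (K : ℝ) : ℝ := 1 / ((L : ℝ) ^ 2 * (WW L K + 1))

theorem exists_small {n : ℕ} (hn : 0 < n) (a P : ℕ → ℝ) (c M : ℝ)
    (h : ∀ i < n, a i ≤ P i - P (i + 1) + c) (hM : P 0 - P n ≤ M) : ∃ i < n, a i ≤ M / n + c := by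
  by_contra hc
  push Not at hc
  have h1 : ∑ i ∈ Finset.range n, (M / n + c) < ∑ i ∈ Finset.range n, (P i - P (i + 1) + c) :=
    Finset.sum_lt_sum_of_nonempty (Finset.nonempty_range_iff.2 hn.ne') fun i hi =>
      (hc i (Finset.mem_range.1 hi)).trans_le (h i (Finset.mem_range.1 hi))
  rw [Finset.sum_add_distrib, Finset.sum_add_distrib, Finset.sum_range_sub', Finset.sum_const,
    Finset.card_range, nsmul_eq_mul, mul_div_cancel₀ _ (by exact_mod_cast hn.ne')] at h1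
  linarith

set_option maxHeartbeats 1600000 in
theorem t_final_of (hG : T_geo) (hA : T_apx) : T_final := by
  intro hF L K
  refine ⟨2 * (WW L K + 1 / ep L K) + km L K, ?_⟩
  intro θ f t F A D γ lam mf h01 hK hB hKA g0 g1 gL hS hν
  obtain ⟨pos, rem, G⟩ := hG θ L D hB.mD hB.hit
  have g3 : γ ^ 3 ≤ γ := by nlinarith [mul_nonneg g0.le g0.le, mul_le_one₀ g1 g0.le g1]
  have L1 : (1 : ℝ) ≤ L := by nlinarith [(Nat.cast_nonneg L : (0 : ℝ) ≤ L)]
  have L0 : (0 : ℝ) < L := by linarith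
  have hL : 0 < L := by exact_mod_cast L0
  have iL : 1 / (L : ℝ) ≤ γ := by rw [div_le_iff₀ L0]; nlinarith
  have LK : 0 ≤ L * K := by positivity
  have k0 : 0 ≤ km L K := by unfold km; positivity
  have W0 : 0 ≤ WW L K := by unfold WW; positivity
  have e0 : 0 < ep L K := by unfold ep; positivity
  have eW : ep L K * (WW L K + 1) = 1 / (L : ℝ) ^ 2 := by unfold ep; field_simp
  have e1 : ep L K ≤ 1 := by
    have : 1 / (L : ℝ) ^ 2 ≤ 1 := by rw [div_le_one (by positivity)]; nlinarith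
    nlinarith [mul_nonneg e0.le W0]
  set ε := ep L K with hε
  set W := WW L K with hW
  set e := ε / (16 * L) with he
  have ee : e / ε = 1 / L / 16 := by rw [he]; field_simp
  have ee' : e ≤ 1 / L := by
    rw [he, div_le_div_iff₀ (by positivity) L0]; nlinarith
  have iL1 : 1 / (L : ℝ) ≤ 1 := iL.trans g1
  set κ : ℕ → ℝ := fun i => L * K + 1 + 2 * i with hκ
  have κ1 : ∀ i, L * K + 1 ≤ κ i := fun i => by
    simp only [hκ]; linarith [(Nat.cast_nonneg i : (0 : ℝ) ≤ i)]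
  have κ2 : ∀ i ≤ L ^ 2, κ i ≤ km L K := fun i hi => by
    have : (i : ℝ) ≤ (L : ℝ) ^ 2 := by exact_mod_cast hi
    simp only [hκ, km]; linarith
  have bc := RB_pc G
  have hw : ∀ i ≤ L ^ 2, RB (fun y => flat θ f K pos y - κ i * pc pos rem y) W := fun i hi =>
    ⟨(meas_flat G mf).sub (bc.1.const_mul _), fun y => by
      refine (abs_sub _ _).trans (add_le_add ?_ ?_)
      · rw [abs_of_nonneg (flat_bd G h01 hK y).1]; exact (flat_bd G h01 hK y).2
      · rw [abs_mul, abs_of_nonneg (by linarith [κ1 i] : 0 ≤ κ i)]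
        exact mul_le_mul (κ2 i hi) (bc.2 y) (abs_nonneg _) k0⟩
  choose! s hs hfx using fun i (hi : i ≤ L ^ 2) =>
    hF θ f t F (pp θ pos) _ W ε e (meas_pp G) (hw i hi) e0 (by positivity)
  set v : ℕ → Cir → ℝ := fun i => vv θ f K pos rem (κ i) (s i) with hv
  have rv : ∀ i ≤ L ^ 2, RB (v i) (W + 1 / ε) := fun i hi =>
    ⟨(hw i hi).1.add ((hs i hi).1.comp (meas_pp G)), fun y =>
      (abs_add_le _ _).trans (add_le_add ((hw i hi).2 y) ((hs i hi).2 _))⟩
  have fx : ∀ i ≤ L ^ 2, Fx F (pp θ pos) (v i) (s i) ε e := fun i hi => hfx i hi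
  have Pb : ∀ u, |∫ x, F.ρ u x * pc pos rem x ∂mu| ≤ L / 2 := fun u => by
    have := norm_integral_le_of_norm_le_const (μ := mu) (C := L / 2)
      (f := fun x => F.ρ u x * pc pos rem x) (Eventually.of_forall fun x => by
        rw [Real.norm_eq_abs, abs_mul, abs_of_nonneg (F.r01 u x).1]
        exact (mul_le_of_le_one_left (abs_nonneg _) (F.r01 u x).2).trans (bc.2 x))
    simpa using this
  obtain ⟨i, hi, ha⟩ := exists_small (n := L ^ 2) (by positivity)
    (fun i => (F.ν (v i)).real (SB θ D ∩ {z | z.2 ≠ 0}) / 4)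
    (fun i => 2 * ∫ x, F.ρ (v i) x * pc pos rem x ∂mu) (4 * (e / ε)) (2 * L)
    (fun i hi => stepA F G e0 (hs i hi.le) (hs (i + 1) hi) rfl (by
      simp only [hv, hκ]; congr 1; push_cast; ring) (rv i hi.le) (rv (i + 1) hi) (fx i hi.le)
      (fx (i + 1) hi)) (by
      have := abs_le.1 (Pb (v 0)); have := abs_le.1 (Pb (v (L ^ 2))); linarith)
  have hi' := hi.le
  have a1 : 2 * (L : ℝ) / ((L ^ 2 : ℕ) : ℝ) = 2 * (1 / L) := by push_cast; field_simp
  rw [a1, ee] at ha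
  have := F.fin (v i)
  have iε : 0 < 1 / ε := by positivity
  have a2 : t - ∫ x, F.ρ (v i) x ^ 2 ∂mu ≤ lam + 9 * (1 / L) := by
    have b1 := F.left _ _ (rv i hi') univ MeasurableSet.univ
    rw [Measure.restrict_univ, F.mean _ _ (rv i hi')] at b1
    have b2 := F.zero _ _ (rv i hi')
    have b3 := hν (v i) ⟨(rv i hi').1, fun x => ((rv i hi').2 x).trans (by linarith)⟩
    have b4 : (F.ν (v i)).real (EE θ univ univ) ≤ (F.ν (v i)).real
        ({z | z.2 = 0} ∪ ((SB θ D)ᶜ ∪ SB θ D ∩ {z | z.2 ≠ 0})) :=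
      measureReal_mono fun z _ => by
        by_cases c1 : z.2 = 0
        · exact Or.inl c1
        · by_cases c2 : z ∈ SB θ D
          · exact Or.inr (Or.inr ⟨c2, c1⟩)
          · exact Or.inr (Or.inl c2)
    have b5 := measureReal_union_le (μ := F.ν (v i)) {z | z.2 = 0}
      ((SB θ D)ᶜ ∪ SB θ D ∩ {z | z.2 ≠ 0})
    have b6 := measureReal_union_le (μ := F.ν (v i)) (SB θ D)ᶜ (SB θ D ∩ {z | z.2 ≠ 0})
    linarith
  have hb := stepB F G h01 hK (hs i hi') rfl (rv i hi') (fx i hi')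
  have bs : B fun x => s i (pp θ pos x) := B.comp ⟨_, hs i hi'⟩ (meas_pp G)
  have s0 : 0 ≤ ∫ x, s i (pp θ pos x) * s i (pp θ pos x) ∂mu :=
    integral_nonneg fun x => mul_self_nonneg _
  have bp : B (pc pos rem) := ⟨_, bc⟩
  have small : mu.real D ≤ 8 * (1 / L) := by rw [mul_one_div]; exact hB.small
  have c20 : (20 : ℝ) / L = 20 * (1 / L) := by ring
  have iL0 : 0 < 1 / (L : ℝ) := by positivity
  have q0 : ∫ x, F.ρ 0 x * pc pos rem x ∂mu ≤ γ ^ 3 * L := by
    have rψ : RB (fun x => 1 / L * pc pos rem x) (1 / 2) := ⟨bc.1.const_mul _, fun x => by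
      rw [abs_mul, abs_of_pos iL0]
      refine (mul_le_mul_of_nonneg_left (bc.2 x) iL0.le).trans (le_of_eq ?_)
      field_simp⟩
    have b1 := var_le θ ⟨_, rψ⟩ G.mD iL0.le (fun x =>
      (abs_sub _ _).trans (by linarith [rψ.2 x, rψ.2 (mv θ x 1)])) fun x hx => by
        rw [pc_step G hx, mul_add, add_sub_cancel_left, mul_one, abs_of_pos iL0]
    have b2 := (abs_le.1 (hS _ ⟨rψ.1, fun x => (rψ.2 x).trans (by norm_num)⟩ (by linarith))).2
    rw [F.mean 0 0 RB0] at b2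
    have b3 := le5 ((Bρ F 0).mul bp) (((Bρ F 0).sub (B.const t)).mul ⟨_, rψ⟩)
      (((B_Th G).comp (meas_sg θ 1)).sub (B_Th G)) bp bp (-1) L (-t) 0 0 0 fun x => by
        have : (L : ℝ) * ((F.ρ 0 x - t) * (1 / L * pc pos rem x)) =
          (F.ρ 0 x - t) * pc pos rem x := by field_simp
        rw [this, pc_eq G x]; linarith
    rw [int_shift_sub θ (B_Th G)] at b3
    nlinarith
  have κ0 : 0 < κ i := by linarith [κ1 i]
  have p1 : ∫ x, F.ρ (v i) x * pc pos rem x ∂mu ≤ γ ^ 3 * L + 1 := by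
    have : κ i * (∫ x, F.ρ (v i) x * pc pos rem x ∂mu - ∫ x, F.ρ 0 x * pc pos rem x ∂mu) ≤
        κ i * 1 := by nlinarith [κ1 i, mul_nonneg e0.le s0]
    linarith [le_of_mul_le_mul_left this κ0]
  have p2 := le2 ((Bρ F (v i)).mul bp) ((Bρ F 0).mul bp) 1 (-1) (L / 2) fun x => by
    have b1 := F.r01 (v i) x
    have b2 := F.r01 0 x
    have b3 : |(F.ρ (v i) x - F.ρ 0 x) * pc pos rem x| ≤ 1 * (L / 2) := by
      rw [abs_mul]
      exact mul_le_mul (abs_le.2 ⟨by linarith, by linarith⟩) (bc.2 x) (abs_nonneg _) zero_le_one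
    linarith [(abs_le.1 b3).1]
  have p3 : ε * ∫ x, s i (pp θ pos x) * s i (pp θ pos x) ∂mu ≤ W + 1 := by
    have b1 := mul_le_mul_of_nonneg_left p2 κ0.le
    have b2 := mul_le_mul_of_nonneg_right (κ2 i hi') (by linarith : (0 : ℝ) ≤ L / 2)
    have b3 : W = L * K + km L K * (L / 2) := rfl
    linarith
  have p4 : ∫ x, |ε * s i (pp θ pos x)| ∂mu ≤ 1 / L := by
    have b1 := le2 ((B.const ε).mul bs).abs (bs.mul bs) (-1) (L * ε ^ 2 / 2) (1 / L / 2) fun x => by
      have c1 : (L : ℝ) * ε ^ 2 / 2 * (s i (pp θ pos x) * s i (pp θ pos x)) =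
          L * |ε * s i (pp θ pos x)| ^ 2 / 2 := by rw [sq_abs]; ring
      have c2 : -1 * |ε * s i (pp θ pos x)| + L * |ε * s i (pp θ pos x)| ^ 2 / 2 + 1 / L / 2 =
          L / 2 * (|ε * s i (pp θ pos x)| - 1 / L) ^ 2 := by field_simp; ring
      rw [c1, c2]; positivity
    have b2 := mul_le_mul_of_nonneg_left p3 (by positivity : 0 ≤ L * ε / 2)
    have b3 : L * ε / 2 * (W + 1) = 1 / L / 2 := by
      rw [show L * ε / 2 * (W + 1) = L / 2 * (ε * (W + 1)) by ring, eW]; field_simp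
    linarith
  have hc := stepC F G hB hL rfl (rv i hi') (by linarith [κ2 i hi'] : _ + κ i ≤ A)
  obtain ⟨φ, mφ, φ01, hφ⟩ := hA θ L D pos rem (F.ρ (v i)) γ G hB.small (F.mρ _) (F.r01 _) g0 g1 gL
    (hc.trans (by linarith))
  have hd := stepD F G (hs i hi') (rv i hi') (fx i hi') mφ φ01 hφ hS (by linarith) p4
  linarith

end Crest.Agent.H2.RI
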