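import Crest.Agent.H9.RI.Plan
import Crest.Agent.H9.RI.Design
import Crest.Agent.H6.RI.VtKer
import Crest.Agent.H6.RI.Cake
import Crest.Agent.H6.RI.Geo
import Crest.Agent.Lead.RI.Gain
import Crest.Agent.Lead.RI.Fix
import Crest.Agent.H4.RI.Lip
import Crest.Agent.H4.RI.Fam
import Crest.Agent.H3.RI.Hyp
import Crest.Agent.H3.RI.TH
import Crest.Agent.H3.RI.Apx
import Crest.Agent.H2.RI.Final
import Crest.Agent.H8.RI.Orth
import Crest.Agent.H8.RI.SmWt
import Crest.Agent.H7.RI.TCode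
import Crest.Agent.H1.RI.Par
import Crest.Agent.H1.RI.Arc

/-! Everything but the step function. -/

set_option autoImplicit false

noncomputable section

namespace Crest.Agent.H2.RI

open Crest.AnalysisR.RotationRep Crest.Agent.H9.RI

theorem all_of_step (h16 : T_step) (θ : ℝ) (hθ : Irrational θ) :
    ∃ F : ℂ → ℝ, Wt F ∧ ∀ U V : Op, IsRotationPair θ U V →
      ∀ p : Op, p ∈ vonNeumannGenerated {U, V} → IsStarProjection p →
        (1 - p) * (U * cfc (fun z : ℂ => (F z : ℂ)) V) * p = 0 → p = 0 ∨ p = 1 :=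
  assemble H6.RI.t_vt H6.RI.t_ker Lead.RI.t_gain H6.RI.t_cake H4.RI.t_lip H4.RI.t_mono H3.RI.t_hyp
    H4.RI.t_fam H3.RI.t_H Lead.RI.t_fix Lead.RI.t_erg (t_final_of H6.RI.t_geo H3.RI.t_apx)
    t_bessel H8.RI.t_orth H7.RI.t_code h16 H1.RI.t_par H1.RI.t_arc H8.RI.t_smooth H8.RI.t_wt
    t_design t_main θ hθ

end Crest.Agent.H2.RI
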