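import Crest.Agent.H9.RI.Defs

/-! Bessel selection for S0149. -/

set_option autoImplicit false

noncomputable section

namespace Crest.Agent.H2.RI

open MeasureTheory Filter Finset Crest.Agent.H2.RP Crest.Agent.H9.RI

theorem int_of {f : Cir → ℝ} (C : ℝ) (hf : Measurable f) (hC : ∀ x, |f x| ≤ C) :
    Integrable f mu :=
  Integrable.of_bound hf.aestronglyMeasurable C (Eventually.of_forall hC)

theorem int_mul {f g : Cir → ℝ} (hf : RB f 1) (hg : RB g 1) :
    Integrable (fun x => f x * g x) mu :=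
  int_of 1 (hf.1.mul hg.1) fun x => by
    rw [abs_mul]; exact mul_le_one₀ (hf.2 x) (abs_nonneg _) (hg.2 x)

theorem t_bessel : T_bessel := by
  intro ρ s ζ e hρ hs hζ he ho
  set c : ℕ → ℝ := fun i => ∫ x, ρ x * ζ i x ∂mu with hc
  obtain ⟨i0, hi0, hmin⟩ := s.exists_min_image (fun i => |c i|) hs
  refine ⟨i0, hi0, ?_⟩
  have hn : (0 : ℝ) < s.card := by exact_mod_cast hs.card_pos
  set σ : ℕ → ℝ := fun i => if 0 ≤ c i then 1 else -1 with hσ
  have hσa : ∀ i, |σ i| = 1 := fun i => by
    by_cases h : 0 ≤ c i <;> simp [hσ, h]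
  have hσc : ∀ i, σ i * c i = |c i| := fun i => by
    by_cases h : 0 ≤ c i
    · simp [hσ, h, abs_of_nonneg h]
    · simp only [hσ, h, if_false]
      rw [abs_of_neg (not_le.1 h)]; ring
  set a : ℝ := ∑ i ∈ s, |c i| with ha
  have i1 : ∀ i ∈ s, Integrable (fun x => σ i * (ρ x * ζ i x)) mu := fun i hi =>
    (int_mul hρ (hζ i hi)).const_mul _
  have i2 : ∀ i ∈ s, ∀ j ∈ s, Integrable (fun x => σ i * σ j * (ζ i x * ζ j x)) mu :=
    fun i hi j hj => (int_mul (hζ i hi) (hζ j hj)).const_mul _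
  have e1 : ∫ x, ∑ i ∈ s, σ i * (ρ x * ζ i x) ∂mu = a := by
    rw [integral_finsetSum _ i1]
    exact sum_congr rfl fun i _ => by rw [integral_const_mul]; exact hσc i
  have i3 : Integrable (fun x => ∑ i ∈ s, ∑ j ∈ s, σ i * σ j * (ζ i x * ζ j x)) mu :=
    integrable_finsetSum _ fun i hi => integrable_finsetSum _ fun j hj => i2 i hi j hj
  have e2 : ∫ x, ∑ i ∈ s, ∑ j ∈ s, σ i * σ j * (ζ i x * ζ j x) ∂mu ≤
      s.card * (1 + s.card * e) := by
    rw [integral_finsetSum _ fun i hi => integrable_finsetSum _ fun j hj => i2 i hi j hj]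
    have : ∀ i ∈ s, ∫ x, ∑ j ∈ s, σ i * σ j * (ζ i x * ζ j x) ∂mu ≤ 1 + s.card * e := by
      intro i hi
      rw [integral_finsetSum _ fun j hj => i2 i hi j hj]
      have hb : ∀ j ∈ s, ∫ x, σ i * σ j * (ζ i x * ζ j x) ∂mu ≤ (if i = j then 1 else 0) + e := by
        intro j hj
        rw [integral_const_mul]
        refine (le_abs_self _).trans ?_
        rw [abs_mul, abs_mul, hσa, hσa, one_mul, one_mul]
        rcases lt_trichotomy i j with h | h | h
        · have := ho i hi j hj h
          simp only [h.ne, if_false]; linarith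
        · have : ‖∫ x, ζ i x * ζ j x ∂mu‖ ≤ 1 * mu.real Set.univ :=
            norm_integral_le_of_norm_le_const (Eventually.of_forall fun x => by
              rw [Real.norm_eq_abs, abs_mul]
              exact mul_le_one₀ ((hζ i hi).2 x) (abs_nonneg _) ((hζ j hj).2 x))
          rw [Real.norm_eq_abs] at this
          simp only [h, if_true]
          simp only [h, probReal_univ] at this
          linarith
        · have := ho j hj i hi h
          simp only [h.ne', if_false]
          simp only [mul_comm (ζ j _)] at this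
          linarith
      refine (sum_le_sum hb).trans ?_
      rw [sum_add_distrib, sum_ite_eq, if_pos hi, sum_const, nsmul_eq_mul]
    refine (sum_le_sum this).trans ?_
    rw [sum_const, nsmul_eq_mul]
  have key : ∫ x, 2 * a * ∑ i ∈ s, σ i * (ρ x * ζ i x) ∂mu ≤
      ∫ x, (∑ i ∈ s, ∑ j ∈ s, σ i * σ j * (ζ i x * ζ j x) + a ^ 2) ∂mu := by
    refine integral_mono ((integrable_finsetSum _ i1).const_mul _)
      (i3.add (integrable_const _)) fun x => ?_
    have h1 : ∑ i ∈ s, σ i * (ρ x * ζ i x) = ρ x * ∑ i ∈ s, σ i * ζ i x := by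
      rw [mul_sum]; exact sum_congr rfl fun i _ => by ring
    have h2 : ∑ i ∈ s, ∑ j ∈ s, σ i * σ j * (ζ i x * ζ j x) = (∑ i ∈ s, σ i * ζ i x) ^ 2 := by
      rw [sq, sum_mul_sum]
      exact sum_congr rfl fun i _ => sum_congr rfl fun j _ => by ring
    simp only [h1, h2]
    have h3 : ρ x ^ 2 ≤ 1 := by
      have := hρ.2 x
      rw [← sq_abs]; nlinarith [abs_nonneg (ρ x)]
    nlinarith [sq_nonneg (∑ i ∈ s, σ i * ζ i x - a * ρ x), mul_nonneg (sq_nonneg a) (sub_nonneg.2 h3)]
  rw [integral_const_mul, e1, integral_add i3 (integrable_const _), integral_const] at key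
  simp only [probReal_univ, smul_eq_mul, one_mul] at key
  have h4 : s.card * |c i0| ≤ a := by
    rw [ha, ← nsmul_eq_mul, ← sum_const]; exact sum_le_sum hmin
  have h5 : (s.card * |c i0|) ^ 2 ≤ a ^ 2 := by
    have : 0 ≤ s.card * |c i0| := by positivity
    nlinarith
  have h6 : (s.card : ℝ) ^ 2 * c i0 ^ 2 ≤ (s.card : ℝ) ^ 2 * (1 / s.card + e) := by
    have : (s.card : ℝ) ^ 2 * (1 / s.card + e) = s.card * (1 + s.card * e) := by field_simp
    rw [this]
    rw [mul_pow, sq_abs] at h5
    nlinarith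
  exact le_of_mul_le_mul_left h6 (by positivity)

end Crest.Agent.H2.RI
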