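import Crest.Agent.H2.RI.Main
import Crest.Agent.H9.RI.Defs2

/-! Tools for the final step of S0149. -/

set_option autoImplicit false

noncomputable section

namespace Crest.Agent.H2.RI

open MeasureTheory Filter Set Crest.Agent.H2.RP Crest.Agent.H9.RI

/-- bounded measurable -/
def B (f : Cir → ℝ) : Prop := ∃ R, RB f R

namespace B

variable {f g : Cir → ℝ}

theorem int (h : B f) : Integrable f mu := by
  obtain ⟨R, h⟩ := h; exact int_of R h.1 h.2

theorem const (c : ℝ) : B fun _ => c := ⟨|c|, measurable_const, fun _ => le_rfl⟩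

theorem add (hf : B f) (hg : B g) : B fun x => f x + g x := by
  obtain ⟨R, h⟩ := hf; obtain ⟨R', h'⟩ := hg
  exact ⟨R + R', h.1.add h'.1, fun x => (abs_add_le _ _).trans (add_le_add (h.2 x) (h'.2 x))⟩

theorem sub (hf : B f) (hg : B g) : B fun x => f x - g x := by
  obtain ⟨R, h⟩ := hf; obtain ⟨R', h'⟩ := hg
  exact ⟨R + R', h.1.sub h'.1, fun x => (abs_sub _ _).trans (add_le_add (h.2 x) (h'.2 x))⟩

theorem mul (hf : B f) (hg : B g) : B fun x => f x * g x := by
  obtain ⟨R, h⟩ := hf; obtain ⟨R', h'⟩ := hg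
  refine ⟨R * R', h.1.mul h'.1, fun x => ?_⟩
  rw [abs_mul]
  exact mul_le_mul (h.2 x) (h'.2 x) (abs_nonneg _) ((abs_nonneg _).trans (h.2 x))

theorem abs (hf : B f) : B fun x => |f x| := by
  obtain ⟨R, h⟩ := hf
  exact ⟨R, continuous_abs.measurable.comp h.1, fun x => by rw [abs_abs]; exact h.2 x⟩

theorem comp (hf : B f) {π : Cir → Cir} (hπ : Measurable π) : B fun x => f (π x) := by
  obtain ⟨R, h⟩ := hf
  exact ⟨R, h.1.comp hπ, fun x => h.2 _⟩

theorem ind (hf : B f) {S : Set Cir} (hS : MeasurableSet S) : B (S.indicator f) := by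
  obtain ⟨R, h⟩ := hf
  refine ⟨R, h.1.indicator hS, fun x => ?_⟩
  by_cases hx : x ∈ S
  · rw [indicator_of_mem hx]; exact h.2 x
  · rw [indicator_of_notMem hx, abs_zero]; exact (abs_nonneg _).trans (h.2 x)

theorem of01 (hm : Measurable f) (h : ∀ x, 0 ≤ f x ∧ f x ≤ 1) : B f :=
  ⟨1, hm, fun x => by rw [abs_of_nonneg (h x).1]; exact (h x).2⟩

end B

theorem le5 {a b c d g : Cir → ℝ} (ha : B a) (hb : B b) (hc : B c) (hd : B d) (hg : B g)
    (α β γ δ ε k : ℝ) (h : ∀ x, 0 ≤ α * a x + β * b x + γ * c x + δ * d x + ε * g x + k) :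
    0 ≤ α * ∫ x, a x ∂mu + β * ∫ x, b x ∂mu + γ * ∫ x, c x ∂mu + δ * ∫ x, d x ∂mu +
      ε * ∫ x, g x ∂mu + k := by
  have i1 := (B.const α).mul ha
  have i2 := (B.const β).mul hb
  have i3 := (B.const γ).mul hc
  have i4 := (B.const δ).mul hd
  have i5 := (B.const ε).mul hg
  have : 0 ≤ ∫ x, (α * a x + β * b x + γ * c x + δ * d x + ε * g x + k) ∂mu := integral_nonneg h
  rw [integral_add ((((i1.add i2).add i3).add i4).add i5).int (integrable_const _),
    integral_add (((i1.add i2).add i3).add i4).int i5.int,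
    integral_add ((i1.add i2).add i3).int i4.int, integral_add (i1.add i2).int i3.int,
    integral_add i1.int i2.int] at this
  simpa only [integral_const_mul, integral_const, probReal_univ, smul_eq_mul, one_mul] using this

theorem le2 {a b : Cir → ℝ} (ha : B a) (hb : B b) (α β k : ℝ)
    (h : ∀ x, 0 ≤ α * a x + β * b x + k) :
    0 ≤ α * ∫ x, a x ∂mu + β * ∫ x, b x ∂mu + k := by
  have := le5 ha hb ha ha ha α β 0 0 0 k fun x => by have := h x; linarith
  linarith

theorem meas_sg (θ : ℝ) (k : ℤ) : Measurable fun x => mv θ x k := measurable_id.add_const _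

theorem int_shift (θ : ℝ) (h : Cir → ℝ) : ∫ x, h (mv θ x 1) ∂mu = ∫ x, h x ∂mu :=
  integral_add_right_eq_self h _

theorem int_shift_sub (θ : ℝ) {h : Cir → ℝ} (hh : B h) :
    ∫ x, (h (mv θ x 1) - h x) ∂mu = 0 := by
  rw [integral_sub (hh.comp (meas_sg θ 1)).int hh.int, int_shift, sub_self]

theorem var_le (θ : ℝ) {ψ : Cir → ℝ} (hψ : B ψ) {D : Set Cir} (hD : MeasurableSet D) {a : ℝ}
    (ha : 0 ≤ a) (h1 : ∀ x, |ψ (mv θ x 1) - ψ x| ≤ 1)
    (h2 : ∀ x, mv θ x 1 ∉ D → |ψ (mv θ x 1) - ψ x| ≤ a) :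
    ∫ x, |ψ (mv θ x 1) - ψ x| ∂mu ≤ a + mu.real D := by
  have := le2 ((hψ.comp (meas_sg θ 1)).sub hψ).abs
    (((B.const 1).ind hD).comp (meas_sg θ 1)) (-1) 1 a fun x => by
      by_cases hx : mv θ x 1 ∈ D
      · rw [indicator_of_mem hx]; linarith [h1 x]
      · rw [indicator_of_notMem hx]; linarith [h2 x hx]
  rw [int_shift θ (D.indicator fun _ => (1 : ℝ)), integral_indicator hD] at this
  simp only [integral_const, MeasurableSet.univ, measureReal_restrict_apply, univ_inter,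
    smul_eq_mul, mul_one] at this
  linarith

/-- block start -/
def pp (θ : ℝ) (pos : Cir → ℕ) (x : Cir) : Cir := mv θ x (-(pos x : ℤ))
def Th (pos rem : Cir → ℕ) (x : Cir) : ℝ := (pos x : ℝ) * rem x / 2
def pc (pos rem : Cir → ℕ) (x : Cir) : ℝ := ((pos x : ℝ) - rem x + 1) / 2
def gg (f : Cir → ℝ) (K : ℝ) (x : Cir) : ℝ := -Real.log (max (f x) (Real.exp (-K)))
def flat (θ : ℝ) (f : Cir → ℝ) (K : ℝ) (pos : Cir → ℕ) (x : Cir) : ℝ :=
  ∑ i ∈ Finset.range (pos x), gg f K (mv θ x (-((i : ℤ) + 1)))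

variable {θ : ℝ} {L : ℕ} {D : Set Cir} {pos rem : Cir → ℕ} {f : Cir → ℝ} {K : ℝ}

theorem meas_pp (G : Geo θ L D pos rem) : Measurable (pp θ pos) :=
  (meas_mv θ).comp (measurable_id.prodMk
    ((measurable_of_countable fun n : ℕ => -(n : ℤ)).comp G.mpos))

theorem mc {p : Cir → ℕ} (h : Measurable p) : Measurable fun x => (p x : ℝ) :=
  (measurable_of_countable fun n : ℕ => (n : ℝ)).comp h

theorem Th_bd (G : Geo θ L D pos rem) (x : Cir) :
    0 ≤ Th pos rem x ∧ Th pos rem x ≤ (L : ℝ) ^ 2 / 2 := by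
  have h1 : (pos x : ℝ) ≤ L := by exact_mod_cast (G.lt x).le
  have h2 : (rem x : ℝ) ≤ L := by exact_mod_cast G.rL x
  refine ⟨by unfold Th; positivity, ?_⟩
  have := mul_le_mul h1 h2 (Nat.cast_nonneg _) (Nat.cast_nonneg _)
  unfold Th; nlinarith

theorem B_Th (G : Geo θ L D pos rem) : B (Th pos rem) :=
  ⟨_, ((mc G.mpos).mul (mc G.mrem)).div_const _, fun x => by
    rw [abs_of_nonneg (Th_bd G x).1]; exact (Th_bd G x).2⟩

theorem RB_pc (G : Geo θ L D pos rem) : RB (pc pos rem) (L / 2) := by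
  refine ⟨(((mc G.mpos).sub (mc G.mrem)).add_const _).div_const _, fun x => ?_⟩
  have h1 : (pos x : ℝ) ≤ L := by exact_mod_cast (G.lt x).le
  have h2 : (rem x : ℝ) ≤ L := by exact_mod_cast G.rL x
  have h3 : (1 : ℝ) ≤ rem x := by exact_mod_cast G.r1 x
  have h4 : (0 : ℝ) ≤ pos x := Nat.cast_nonneg _
  unfold pc; rw [abs_le]; constructor <;> linarith

theorem pc_eq (G : Geo θ L D pos rem) (x : Cir) :
    pc pos rem x = Th pos rem x - Th pos rem (mv θ x 1) := by
  unfold pc Th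
  by_cases h : mv θ x 1 ∈ D
  · rw [(G.stepD x h).1, (G.stepD x h).2]; push_cast; ring
  · rw [(G.stepN x h).1, (G.stepN x h).2]; push_cast; ring

theorem pc_step (G : Geo θ L D pos rem) {x : Cir} (h : mv θ x 1 ∉ D) :
    pc pos rem (mv θ x 1) = pc pos rem x + 1 := by
  unfold pc; rw [(G.stepN x h).1, (G.stepN x h).2]; push_cast; ring

theorem pp_step (G : Geo θ L D pos rem) {x : Cir} (h : mv θ x 1 ∉ D) :
    pp θ pos (mv θ x 1) = pp θ pos x := by
  unfold pp; rw [(G.stepN x h).1, mv_mv]; congr 1; push_cast; ring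

theorem Th_D (G : Geo θ L D pos rem) {x : Cir} (h : mv θ x 1 ∈ D) :
    Th pos rem (mv θ x 1) = 0 := by
  unfold Th; rw [(G.stepD x h).1]; simp

theorem pc_sb (G : Geo θ L D pos rem) {x : Cir} {k : ℤ} (h : (x, k) ∈ SB θ D) :
    pc pos rem (mv θ x k) = pc pos rem x + k := by
  have h1 : (pos (mv θ x k) : ℝ) = pos x + k := by exact_mod_cast (G.sb x k h).1
  have h2 : (rem (mv θ x k) : ℝ) = rem x - k := by exact_mod_cast (G.sb x k h).2
  unfold pc; rw [h1, h2]; ring

theorem pp_sb (G : Geo θ L D pos rem) {x : Cir} {k : ℤ} (h : (x, k) ∈ SB θ D) :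
    pp θ pos (mv θ x k) = pp θ pos x := by
  unfold pp; rw [(G.sb x k h).1, mv_mv]; congr 1; ring

theorem gg_bd (h01 : ∀ x, 0 ≤ f x ∧ f x ≤ 1) (hK : 0 ≤ K) (x : Cir) :
    0 ≤ gg f K x ∧ gg f K x ≤ K := by
  have h1 : Real.exp (-K) ≤ max (f x) (Real.exp (-K)) := le_max_right _ _
  have h2 : max (f x) (Real.exp (-K)) ≤ 1 :=
    max_le (h01 x).2 (Real.exp_le_one_iff.2 (by linarith))
  have h3 := Real.log_le_log (Real.exp_pos _) h1
  rw [Real.log_exp] at h3
  have h4 := Real.log_nonpos ((Real.exp_pos _).le.trans h1) h2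
  unfold gg; constructor <;> linarith

theorem gg_eq {x : Cir} (h : Real.exp (-K) ≤ f x) : f x * Real.exp (gg f K x) = 1 := by
  have h0 : 0 < f x := (Real.exp_pos _).trans_le h
  unfold gg
  rw [max_eq_left h, Real.exp_neg, Real.exp_log h0, mul_inv_cancel₀ h0.ne']

theorem flat_bd (G : Geo θ L D pos rem) (h01 : ∀ x, 0 ≤ f x ∧ f x ≤ 1) (hK : 0 ≤ K) (x : Cir) :
    0 ≤ flat θ f K pos x ∧ flat θ f K pos x ≤ L * K := by
  refine ⟨Finset.sum_nonneg fun i _ => (gg_bd h01 hK _).1, ?_⟩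
  refine (Finset.sum_le_sum fun i _ => (gg_bd h01 hK _).2).trans ?_
  rw [Finset.sum_const, Finset.card_range, nsmul_eq_mul]
  exact mul_le_mul_of_nonneg_right (by exact_mod_cast (G.lt x).le) hK

theorem meas_flat (G : Geo θ L D pos rem) (hf : Measurable f) : Measurable (flat θ f K pos) := by
  have hg : Measurable (gg f K) := (hf.max measurable_const).log.neg
  have : Measurable fun p : Cir × ℕ =>
      ∑ i ∈ Finset.range p.2, gg f K (mv θ p.1 (-((i : ℤ) + 1))) :=
    measurable_from_prod_countable_left fun n =>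
      Finset.measurable_sum (Finset.range n) fun i _ => hg.comp (meas_sg θ _)
  exact this.comp (measurable_id.prodMk G.mpos)

theorem flat_step (G : Geo θ L D pos rem) {x : Cir} (h : mv θ x 1 ∉ D) :
    flat θ f K pos (mv θ x 1) = flat θ f K pos x + gg f K x := by
  unfold flat
  rw [(G.stepN x h).1, Finset.sum_range_succ']
  congr 1
  · refine Finset.sum_congr rfl fun i _ => ?_
    rw [mv_mv, show (1 : ℤ) + -(((i + 1 : ℕ) : ℤ) + 1) = -((i : ℤ) + 1) by push_cast; ring]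
  · rw [mv_mv]; simp [mv]

end Crest.Agent.H2.RI
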