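import Crest.Agent.H2.RI.FinA

/-! The four estimates of the final step of S0149. -/

set_option autoImplicit false

noncomputable section

namespace Crest.Agent.H2.RI

open MeasureTheory Filter Set Crest.Agent.H2.RP Crest.Agent.H9.RI

variable {θ : ℝ} {L : ℕ} {D : Set Cir} {pos rem : Cir → ℕ} {f : Cir → ℝ} {K t : ℝ}

/-- the tilt -/
def vv (θ : ℝ) (f : Cir → ℝ) (K : ℝ) (pos rem : Cir → ℕ) (κ : ℝ) (s : Cir → ℝ) (y : Cir) : ℝ :=
  (flat θ f K pos y - κ * pc pos rem y) + s (pp θ pos y)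

def Fx (F : Fam θ f t) (π : Cir → Cir) (v s : Cir → ℝ) (ε e : ℝ) : Prop :=
  ∀ (ψ : Cir → ℝ) (Q : ℝ), RB ψ Q →
    |∫ x, (ε * s (π x) + F.ρ v x - F.ρ 0 x) * ψ (π x) ∂mu| ≤ e * Q

theorem Bρ (F : Fam θ f t) (v : Cir → ℝ) : B (F.ρ v) := B.of01 (F.mρ v) (F.r01 v)

theorem RB0 : RB (0 : Cir → ℝ) 0 := ⟨measurable_const, fun _ => by simp⟩

theorem stepA (F : Fam θ f t) (G : Geo θ L D pos rem) {κ ε e R : ℝ} {s s' : Cir → ℝ}
    (hε : 0 < ε) (hs : RB s (1 / ε)) (hs' : RB s' (1 / ε)) {v v' : Cir → ℝ}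
    (ev : v = vv θ f K pos rem κ s) (ev' : v' = vv θ f K pos rem (κ + 2) s') (hv : RB v R)
    (hv' : RB v' R) (h : Fx F (pp θ pos) v s ε e) (h' : Fx F (pp θ pos) v' s' ε e) :
    (F.ν v).real (SB θ D ∩ {z | z.2 ≠ 0}) / 4 ≤
      2 * ∫ x, F.ρ v x * pc pos rem x ∂mu - 2 * ∫ x, F.ρ v' x * pc pos rem x ∂mu +
        4 * (e / ε) := by
  have := F.fin v
  have hb := F.bonus v v' R R hv hv'
  have hd : ∀ x, v' x - v x = -2 * pc pos rem x + (s' (pp θ pos x) - s (pp θ pos x)) := fun x => by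
    rw [ev, ev']; unfold vv; ring
  have hm : (F.ν v).real (SB θ D ∩ {z | z.2 ≠ 0}) ≤ (F.ν v).real
      {z | 2 ≤ |(v' (mv θ z.1 z.2) - v (mv θ z.1 z.2)) - (v' z.1 - v z.1)|} := by
    refine measureReal_mono fun z hz => ?_
    obtain ⟨x, k⟩ := z
    have h1 : (1 : ℝ) ≤ |(k : ℝ)| := by exact_mod_cast Int.one_le_abs hz.2
    simp only [mem_ofPred_eq, hd, pc_sb G hz.1, pp_sb G hz.1]
    rw [show -2 * (pc pos rem x + k) + (s' (pp θ pos x) - s (pp θ pos x)) -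
      (-2 * pc pos rem x + (s' (pp θ pos x) - s (pp θ pos x))) = -2 * k by ring, abs_mul]
    norm_num; linarith
  have hψ : RB (fun x => s' x - s x) (2 / ε) := ⟨hs'.1.sub hs.1, fun x =>
    (abs_sub _ _).trans (by have := hs.2 x; have := hs'.2 x; have : 2 / ε = 1 / ε + 1 / ε := by ring
                            linarith)⟩
  have j := (abs_le.1 (h _ _ hψ)).1
  have j' := (abs_le.1 (h' _ _ hψ)).2
  have bp := meas_pp G
  have bs : B fun x => s (pp θ pos x) := B.comp ⟨_, hs⟩ bp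
  have bs' : B fun x => s' (pp θ pos x) := B.comp ⟨_, hs'⟩ bp
  have bc : B (pc pos rem) := ⟨_, RB_pc G⟩
  have key := le5 (((Bρ F v').sub (Bρ F v)).mul (B.sub ⟨_, hv'⟩ ⟨_, hv⟩)) ((Bρ F v').mul bc)
    ((Bρ F v).mul bc) (((((B.const ε).mul bs').add (Bρ F v')).sub (Bρ F 0)).mul (bs'.sub bs))
    (((((B.const ε).mul bs).add (Bρ F v)).sub (Bρ F 0)).mul (bs'.sub bs)) (-1) (-2) 2 1 (-1) 0
    fun x => by
      rw [hd]
      nlinarith [mul_nonneg hε.le (sq_nonneg (s' (pp θ pos x) - s (pp θ pos x)))]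
  have : e * (2 / ε) = 2 * (e / ε) := by ring
  linarith

theorem stepB (F : Fam θ f t) (G : Geo θ L D pos rem) (h01 : ∀ x, 0 ≤ f x ∧ f x ≤ 1) (hK : 0 ≤ K)
    {κ ε e R : ℝ} {s : Cir → ℝ} (hs : RB s (1 / ε)) {v : Cir → ℝ}
    (ev : v = vv θ f K pos rem κ s) (hv : RB v R) (h : Fx F (pp θ pos) v s ε e) :
    κ * ∫ x, F.ρ v x * pc pos rem x ∂mu - κ * ∫ x, F.ρ 0 x * pc pos rem x ∂mu +
      ε * ∫ x, s (pp θ pos x) * s (pp θ pos x) ∂mu ≤ L * K + e / ε := by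
  have hb := le_trans (by positivity) (F.bonus 0 v 0 R RB0 hv)
  have j := (abs_le.1 (h _ _ hs)).2
  have bs : B fun x => s (pp θ pos x) := B.comp ⟨_, hs⟩ (meas_pp G)
  have bc : B (pc pos rem) := ⟨_, RB_pc G⟩
  have key := le5 (((Bρ F v).sub (Bρ F 0)).mul (B.sub ⟨_, hv⟩ ⟨_, RB0⟩)) ((Bρ F v).mul bc)
    ((Bρ F 0).mul bc) (((((B.const ε).mul bs).add (Bρ F v)).sub (Bρ F 0)).mul bs)
    (bs.mul bs) (-1) (-κ) κ 1 (-ε) (L * K) fun x => by
      have e1 : v x = (flat θ f K pos x - κ * pc pos rem x) + s (pp θ pos x) := by rw [ev]; rfl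
      have b1 := flat_bd G h01 hK x
      have b2 := F.r01 v x
      have b3 := F.r01 0 x
      rw [e1, Pi.zero_apply]
      nlinarith [mul_nonneg b1.1 (sub_nonneg.2 b2.2), mul_nonneg b1.1 b3.1]
  have : e * (1 / ε) = e / ε := by ring
  linarith

theorem stepC (F : Fam θ f t) (G : Geo θ L D pos rem) {A : ℝ} (hB : Blk θ f L K A D)
    (hL : 0 < L) {κ R : ℝ} {s : Cir → ℝ} {v : Cir → ℝ}
    (ev : v = vv θ f K pos rem κ s) (hv : RB v R) (hA : 2 * R + κ ≤ A) :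
    ∫ x, |F.ρ v (mv θ x 1) - F.ρ v x| * Th pos rem (mv θ x 1) ∂mu ≤
      ∫ x, F.ρ v x * pc pos rem x ∂mu + 2 := by
  obtain ⟨Z, mZ, hZ, z1, z2⟩ := hB.exZ
  have sg := meas_sg θ 1
  have br := Bρ F v
  set S : Set Cir := Zᶜ ∩ ((fun x => mv θ x 1) ⁻¹' Dᶜ ∩ {x | F.ρ v (mv θ x 1) < F.ρ v x}) with hS
  have mS : MeasurableSet S := mZ.compl.inter ((sg G.mD.compl).inter
    (measurableSet_lt ((F.mρ v).comp sg) (F.mρ v)))
  have eq1 : ∀ x ∉ Z, mv θ x 1 ∉ D → f x * Real.exp (v (mv θ x 1) - v x + κ) = 1 := by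
    intro x hx hd
    have : v (mv θ x 1) - v x + κ = gg f K x := by
      rw [ev]; unfold vv; rw [flat_step G hd, pc_step G hd, pp_step G hd]; ring
    rw [this, gg_eq (z2 x hx hd)]
  have hm := F.mono v R κ Z S hv mZ mS (fun x hx => by
    by_cases hd : mv θ x 1 ∈ D
    · have a1 := (abs_le.1 (hv.2 x)).1
      have a2 := (abs_le.1 (hv.2 (mv θ x 1))).2
      calc _ ≤ Real.exp (-A) * Real.exp A :=
            mul_le_mul (z1 x hx hd) (Real.exp_le_exp.2 (by linarith)) (Real.exp_pos _).le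
              (Real.exp_pos _).le
        _ = 1 := by rw [← Real.exp_add]; simp
    · exact (eq1 x hx hd).le) fun x hx => ⟨hx.1, eq1 x hx.1 hx.2.1⟩
  have bT := B_Th G
  have key := le5 (((br.comp sg).sub br).abs.mul (bT.comp sg))
    (((br.mul bT).comp sg).sub (br.mul bT)) (br.mul ⟨_, RB_pc G⟩)
    ((br.ind mS).sub ((br.comp sg).ind mS)) ((B.const 1).ind mZ) (-1) 1 1 (L ^ 2) (L ^ 2) 0
    fun x => by
      have t1 := Th_bd G (mv θ x 1)
      have b1 := F.r01 v x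
      have b2 := F.r01 v (mv θ x 1)
      have l0 : (0 : ℝ) ≤ L ^ 2 := by positivity
      rw [pc_eq G x]
      by_cases hx : x ∈ S
      · have h3 : F.ρ v (mv θ x 1) < F.ρ v x := hx.2.2
        rw [indicator_of_mem hx, indicator_of_mem hx, indicator_of_notMem hx.1,
          abs_of_neg (sub_neg.2 h3)]
        nlinarith [mul_nonneg (sub_nonneg.2 h3.le) (sub_nonneg.2 t1.2)]
      · rw [indicator_of_notMem hx, indicator_of_notMem hx]
        rcases le_or_gt (F.ρ v x) (F.ρ v (mv θ x 1)) with h3 | h3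
        · rw [abs_of_nonneg (sub_nonneg.2 h3)]
          have : 0 ≤ Z.indicator (fun _ => (1 : ℝ)) x := indicator_nonneg (fun _ _ => zero_le_one) x
          nlinarith [mul_nonneg l0 this]
        · rw [abs_of_neg (sub_neg.2 h3)]
          by_cases hz : x ∈ Z
          · rw [indicator_of_mem hz]
            nlinarith [mul_nonneg t1.1 (sub_nonneg.2 b1.2), mul_nonneg t1.1 b2.1]
          · have hd : mv θ x 1 ∈ D := by
              by_contra hd; exact hx ⟨hz, hd, h3⟩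
            rw [indicator_of_notMem hz, Th_D G hd]; nlinarith
  rw [int_shift_sub θ (br.mul bT), integral_sub (br.ind mS).int ((br.comp sg).ind mS).int,
    integral_indicator mS, integral_indicator mS, integral_indicator mZ] at key
  simp only [integral_const, MeasurableSet.univ, measureReal_restrict_apply, univ_inter,
    smul_eq_mul, mul_one] at key
  have l0 : (0 : ℝ) < L ^ 2 := by positivity
  have h5 : (L : ℝ) ^ 2 * mu.real Z ≤ 1 := by rwa [mul_comm, ← le_div_iff₀ l0]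
  nlinarith [mul_le_mul_of_nonneg_left hm l0.le]

theorem stepD (F : Fam θ f t) (G : Geo θ L D pos rem) {ε e R c γ ω η : ℝ} {s v φ : Cir → ℝ}
    (hs : RB s (1 / ε)) (hv : RB v R) (h : Fx F (pp θ pos) v s ε e) (mφ : Measurable φ)
    (φ01 : ∀ x, 0 ≤ φ x ∧ φ x ≤ 1) (hφ : ∫ x, |F.ρ v x - φ (pp θ pos x)| ∂mu ≤ ω)
    (hS : Slow θ (F.ρ 0) c γ) (hc : mu.real D ≤ c) (hη : ∫ x, |ε * s (pp θ pos x)| ∂mu ≤ η) :
    ∫ x, F.ρ v x ^ 2 ∂mu ≤ t ^ 2 + 2 * ω + γ + e + η := by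
  have bp := meas_pp G
  have rφ : RB φ 1 := ⟨mφ, fun x => by rw [abs_of_nonneg (φ01 x).1]; exact (φ01 x).2⟩
  have bφ : B fun x => φ (pp θ pos x) := B.comp ⟨_, rφ⟩ bp
  have bs : B fun x => ε * s (pp θ pos x) := (B.const ε).mul (B.comp ⟨_, hs⟩ bp)
  have br := Bρ F v
  have j := (abs_le.1 (h _ _ rφ)).2
  have m0 := F.mean 0 0 RB0
  have mv' := F.mean v R hv
  have hv1 := var_le θ bφ G.mD le_rfl (fun x => by
    have := φ01 (pp θ pos x); have := φ01 (pp θ pos (mv θ x 1))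
    rw [abs_le]; constructor <;> linarith) fun x hx => by rw [pp_step G hx]; simp
  have sl := (abs_le.1 (hS (fun x => φ (pp θ pos x)) ⟨mφ.comp bp, fun x => rφ.2 _⟩
    (by linarith))).2
  rw [m0] at sl
  have t0 : 0 ≤ t := mv' ▸ integral_nonneg fun x => (F.r01 v x).1
  have t1 : t ≤ 1 := by
    have := le2 br br (-1) 0 1 fun x => by linarith [(F.r01 v x).2]
    linarith
  have ω0 : 0 ≤ ∫ x, |F.ρ v x - φ (pp θ pos x)| ∂mu := integral_nonneg fun x => abs_nonneg _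
  have k1 := le5 bφ br (br.sub bφ).abs br br (-1) 1 1 0 0 0 fun x => by
    linarith [neg_abs_le (F.ρ v x - φ (pp θ pos x))]
  have k2 := le5 (br.mul br) (br.sub bφ).abs (((bs.add br).sub (Bρ F 0)).mul bφ) bs.abs
    ((Bρ F 0).mul bφ) (-1) 1 1 1 1 0 fun x => by
      have b1 := F.r01 v x
      have b2 := φ01 (pp θ pos x)
      have a1 := le_abs_self (F.ρ v x - φ (pp θ pos x))
      have a2 := neg_abs_le (ε * s (pp θ pos x))
      have a3 := abs_nonneg (F.ρ v x - φ (pp θ pos x))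
      have a4 := abs_nonneg (ε * s (pp θ pos x))
      nlinarith [mul_nonneg b1.1 (sub_nonneg.2 a1), mul_nonneg a3 (sub_nonneg.2 b1.2),
        mul_nonneg b2.1 (sub_nonneg.2 a2), mul_nonneg a4 (sub_nonneg.2 b2.2)]
  have k3 := le5 ((Bρ F 0).mul bφ) (((Bρ F 0).sub (B.const t)).mul bφ) bφ br br (-1) 1 t 0 0 0
    fun x => by nlinarith
  simp only [sq]
  nlinarith [mul_le_mul_of_nonneg_left k1 t0, mul_le_mul_of_nonneg_right t1 ω0]

end Crest.Agent.H2.RI
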