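import Crest.Agent.H2.RI.Bes

/-! Level selection and the limit for S0149. -/

set_option autoImplicit false

noncomputable section

namespace Crest.Agent.H2.RI

open MeasureTheory Filter Set Crest.Agent.H2.RP Crest.Agent.H9.RI

theorem mv_mv (θ : ℝ) (x : Cir) (a b : ℤ) : mv θ (mv θ x a) b = mv θ x (a + b) := by
  simp only [mv, add_assoc, ← AddCircle.coe_add, Int.cast_add, add_mul]

theorem meas_mv (θ : ℝ) : Measurable fun z : Cir × ℤ => mv θ z.1 z.2 :=
  measurable_fst.add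
    ((measurable_of_countable fun k : ℤ => ((k * θ : ℝ) : Cir)).comp measurable_snd)

theorem meas_SB (θ : ℝ) {D : Set Cir} (hD : MeasurableSet D) : MeasurableSet (SB θ D) := by
  have : SB θ D = ⋂ i : ℤ, (Prod.snd ⁻¹' {k : ℤ | 0 < i ∧ i ≤ k ∨ k < i ∧ i ≤ 0}ᶜ ∪
      (fun z : Cir × ℤ => mv θ z.1 i) ⁻¹' Dᶜ) := by
    ext z
    simp only [SB, mem_ofPred_eq, mem_iInter, mem_union, mem_preimage, mem_compl_iff]
    exact forall_congr' fun i => by tauto
  rw [this]
  refine MeasurableSet.iInter fun i => (measurable_snd (MeasurableSet.of_discrete)).union ?_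
  exact (measurable_fst.add_const _) hD.compl

theorem not_SB {θ : ℝ} {D : Set Cir} {L : ℕ}
    (hit : ∀ x, ∃ i : ℕ, i < L ∧ mv θ x (-(i : ℤ)) ∈ D) {z : Cir × ℤ} (hz : (L : ℤ) ≤ |z.2|) :
    z ∉ SB θ D := by
  intro h
  rcases le_abs.1 hz with h1 | h1
  · obtain ⟨i, hi, hD⟩ := hit (mv θ z.1 z.2)
    rw [mv_mv] at hD
    exact h _ (Or.inl ⟨by omega, by omega⟩) hD
  · obtain ⟨i, hi, hD⟩ := hit z.1
    exact h _ (Or.inr ⟨by omega, by omega⟩) hD

theorem RB_zt {V : Set Cir} (hV : MeasurableSet V) {η : ℝ} (h0 : 0 ≤ η) (h1 : η ≤ 1) :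
    RB (zt V η) 1 := by
  refine ⟨(measurable_const.indicator hV).sub_const _, fun x => ?_⟩
  by_cases h : x ∈ V <;> simp only [zt, indicator, h, if_true, if_false] <;>
    rw [abs_le] <;> constructor <;> linarith

theorem EE_eq {u i : ℕ} (h1 : 64 ^ u ≤ i) (h2 : i < 64 ^ (u + 1)) :
    ((EE' i : ℕ) : ℝ) = 2 ^ u := by
  rw [EE', Nat.log_eq_of_pow_le_of_lt_pow h1 h2]; push_cast; rfl

theorem ge4096 {u i : ℕ} (hu : 2 ≤ u) (h1 : 64 ^ u ≤ i) : 4096 ≤ i :=
  le_trans (by norm_num) ((Nat.pow_le_pow_right (by norm_num) hu).trans h1)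

theorem del_le {u i : ℕ} (hu : 2 ≤ u) (h1 : 64 ^ u ≤ i) :
    (1 : ℝ) / i ≤ (1 / 2 ^ u) ^ 4 / 16 := by
  have h2 : 16 * 16 ^ u ≤ i := by
    refine le_trans ?_ h1
    have : 64 ^ u = 4 ^ u * 16 ^ u := by rw [← mul_pow]; norm_num
    rw [this]
    exact Nat.mul_le_mul_right _ (le_trans (by norm_num) (Nat.pow_le_pow_right (by norm_num) hu))
  have h3 : ((1 : ℝ) / 2 ^ u) ^ 4 / 16 = 1 / (16 * 16 ^ u) := by
    rw [one_div_pow, ← pow_mul, mul_comm u 4, pow_mul]; norm_num; field_simp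
  rw [h3]
  exact one_div_le_one_div_of_le (by positivity) (by exact_mod_cast h2)

theorem del_le' {u i : ℕ} (hu : 2 ≤ u) (h1 : 64 ^ u ≤ i) :
    (1 : ℝ) / 2 ^ i ≤ (1 / 2 ^ u) ^ 4 / 16 := by
  refine le_trans ?_ (del_le hu h1)
  have : 0 < i := lt_of_lt_of_le (by norm_num) (ge4096 hu h1)
  exact one_div_le_one_div_of_le (by exact_mod_cast this)
    (by exact_mod_cast (Nat.lt_two_pow_self).le)

variable {θ : ℝ} {Kp : ℕ → ℝ → ℝ} {f : Cir → ℝ} {t : ℝ} {L hi N : ℕ → ℕ} {K A : ℕ → ℝ}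
  {V D : ℕ → Set Cir}

theorem select (hB : T_bessel) (hO : T_orth) (hD : Design θ Kp f L hi N K A V D) {ρ : Cir → ℝ}
    (hρ : RB ρ 1) {u : ℕ} (hu : 2 ≤ u) : ∃ i, 64 ^ u ≤ i ∧ i < 64 ^ (u + 1) ∧
      |∫ x, ρ x * zt (V i) (1 / 2 ^ u) x ∂mu| ≤ (1 / 2 ^ u) ^ 2 := by
  set η : ℝ := 1 / 2 ^ u with hη
  have η0 : 0 ≤ η := by positivity
  have η1 : η ≤ 1 := by
    rw [hη, div_le_one (by positivity)]; exact one_le_pow₀ (by norm_num)
  have hlt : 64 ^ u < 64 ^ (u + 1) := Nat.pow_lt_pow_right (by norm_num) (by omega)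
  obtain ⟨i, hi', hb⟩ := hB ρ (Finset.Ico (64 ^ u) (64 ^ (u + 1))) (fun i => zt (V i) η)
    (3 * (η ^ 4 / 16)) hρ ⟨_, Finset.mem_Ico.2 ⟨le_rfl, hlt⟩⟩
    (fun i hi => RB_zt (hD.lev i (ge4096 hu (Finset.mem_Ico.1 hi).1)).mV η0 η1) (by positivity)
    (fun i hi j hj hij => by
      obtain ⟨a1, a2⟩ := Finset.mem_Ico.1 hi
      obtain ⟨b1, b2⟩ := Finset.mem_Ico.1 hj
      have li := hD.lev i (ge4096 hu a1)
      have lj := hD.lev j (ge4096 hu b1)
      have hav := li.avg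
      rw [EE_eq a1 a2] at hav
      have h1 := hO θ (V i) (V j) (D j) η η (1 / 2 ^ i) (N i) li.mV lj.mV lj.blk.mD η0 η1 η0 η1
        (by positivity) hav lj.const
      have h2 := lj.blk.small
      have h3 : (8 : ℝ) * 2 ^ i * N i ≤ L j := by exact_mod_cast hD.gap i (ge4096 hu a1) j hij
      have h4 : (0 : ℝ) < L j := by
        have := hD.big j (ge4096 hu b1)
        exact_mod_cast lt_of_lt_of_le (by positivity) this
      have h5 : (N i : ℝ) * (8 / L j) ≤ 1 / 2 ^ i := by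
        rw [← mul_div_assoc, div_le_div_iff₀ h4 (by positivity)]; linarith
      have h6 := del_le' hu a1
      have h7 := mul_le_mul_of_nonneg_left h2 (Nat.cast_nonneg (α := ℝ) (N i))
      linarith)
  obtain ⟨a1, a2⟩ := Finset.mem_Ico.1 hi'
  refine ⟨i, a1, a2, ?_⟩
  have hc : 64 ^ u ≤ (Finset.Ico (64 ^ u) (64 ^ (u + 1))).card := by
    rw [Nat.card_Ico, pow_succ]; omega
  have h1 := del_le hu hc
  refine abs_le_of_sq_le_sq ?_ (by positivity)
  have : 0 ≤ η ^ 4 := by positivity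
  calc _ ≤ η ^ 4 := by linarith
    _ = _ := by ring

theorem level (hH : T_H) (F : Fam θ f t) (hD : Design θ Kp f L hi N K A V D) {u i j : ℕ}
    (hu : 2 ≤ u) (a1 : 64 ^ u ≤ i) (a2 : i < 64 ^ (u + 1)) (hj : 4096 ≤ j) (hij : j ≤ i)
    (hb : |∫ x, F.ρ 0 x * zt (V i) (1 / 2 ^ u) x ∂mu| ≤ (1 / 2 ^ u) ^ 2) {v : Cir → ℝ}
    (hv : RB v (Kp (L j) (K j))) :
    (F.ν v).real {z | |z.2| ≤ hi i ∧ z ∉ SB θ (D i)} ≤ 46 * (1 / 2 ^ u) := by
  have := F.fin v
  have li := hD.lev i (ge4096 hu a1)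
  obtain ⟨Bad, mB, hB, hT⟩ := li.tests
  rw [EE_eq a1 a2] at hB hT
  have h6 := del_le' hu a1
  set η : ℝ := 1 / 2 ^ u with hη
  have η0 : 0 < η := by positivity
  have η1 : η ≤ 1 / 2 := by
    refine one_div_le_one_div_of_le (by norm_num) ?_
    exact le_self_pow₀ (by norm_num) (by omega)
  have mS : MeasurableSet {z : Cir × ℤ | |z.2| ≤ hi i ∧ z ∉ SB θ (D i) ∧ z.1 ∉ Bad ∧
      mv θ z.1 z.2 ∉ Bad} :=
    (measurable_snd (MeasurableSet.of_discrete (s := {k : ℤ | |k| ≤ hi i}))).inter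
      ((meas_SB θ li.blk.mD).compl.inter ((measurable_fst mB.compl).inter (meas_mv θ mB.compl)))
  have h1 := hH θ f t F (V i) η (1 / 2 ^ i) (A i) _ v _ hT li.mV mS η0 η1 (by positivity)
    (by rw [div_le_one (by positivity)]; exact one_le_pow₀ (by norm_num)) hv (by
      have c1 := hD.cost j hj i hij
      have c2 := le_abs_self (Kp (L j) (K j))
      have c3 : Real.exp (-1) ≤ 1 / 2 := by
        rw [Real.exp_neg, ← one_div]
        exact one_div_le_one_div_of_le (by norm_num) (by linarith [Real.add_one_le_exp 1])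
      calc _ ≤ Real.exp ((i * 2 : ℕ) * (-1)) := Real.exp_le_exp.2 (by push_cast; linarith)
        _ = Real.exp (-1) ^ (i * 2) := Real.exp_nat_mul _ _
        _ ≤ (1 / 2) ^ (i * 2) := pow_le_pow_left₀ (Real.exp_pos _).le c3 _
        _ = _ := by rw [pow_mul, one_div_pow])
  have hρ : ∫ x in Bad, F.ρ v x ∂mu ≤ 3 * η := by
    refine le_trans ?_ hB
    have := setIntegral_mono (μ := mu) (s := Bad) (f := F.ρ v) (g := fun _ => (1 : ℝ))
      (int_of 1 (F.mρ v) fun x => by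
        rw [abs_of_nonneg (F.r01 v x).1]; exact (F.r01 v x).2).integrableOn
      (integrable_const _).integrableOn fun x => (F.r01 v x).2
    simpa using this
  have h2 := F.left v _ hv Bad mB
  have h3 := F.right v _ hv Bad mB
  have h4 : (F.ν v).real {z | |z.2| ≤ hi i ∧ z ∉ SB θ (D i)} ≤
      (F.ν v).real ({z : Cir × ℤ | |z.2| ≤ hi i ∧ z ∉ SB θ (D i) ∧ z.1 ∉ Bad ∧
      mv θ z.1 z.2 ∉ Bad} ∪ (EE θ Bad univ ∪ EE θ univ Bad)) :=
    measureReal_mono fun z hz => by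
      simp only [EE, mem_union, mem_ofPred_eq, mem_univ, and_true, true_and] at hz ⊢
      tauto
  have h5 := measureReal_union_le (μ := F.ν v) {z : Cir × ℤ | |z.2| ≤ hi i ∧ z ∉ SB θ (D i) ∧
      z.1 ∉ Bad ∧ mv θ z.1 z.2 ∉ Bad} (EE θ Bad univ ∪ EE θ univ Bad)
  have h7 := measureReal_union_le (μ := F.ν v) (EE θ Bad univ) (EE θ univ Bad)
  have h8 : η ^ 4 ≤ η ^ 2 := pow_le_pow_of_le_one η0.le (by linarith) (by norm_num)
  have h9 : 10 / η * (2 * η ^ 2 + |∫ x, F.ρ 0 x * zt (V i) η x ∂mu| + 10 * (1 / 2 ^ i)) ≤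
      10 / η * (4 * η ^ 2) :=
    mul_le_mul_of_nonneg_left (by nlinarith [sq_nonneg η]) (by positivity)
  have h10 : 10 / η * (4 * η ^ 2) = 40 * η := by field_simp; ring
  linarith

theorem t_main : T_main := by
  intro hH hE hB hO θ Kp f t F L hi N K A V D hθ hD hfin
  have hρ : RB (F.ρ 0) 1 := ⟨F.mρ 0, fun x => by
    rw [abs_of_nonneg (F.r01 0 x).1]; exact (F.r01 0 x).2⟩
  choose! J J1 J2 J3 using fun u (hu : 2 ≤ u) => select hB hO hD hρ hu
  have JL : ∀ u, 2 ≤ u → u ≤ L (J u) := fun u hu =>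
    ((Nat.lt_pow_self (by norm_num)).le.trans (J1 u hu)).trans
      (Nat.lt_two_pow_self.le.trans (hD.big _ (ge4096 hu (J1 u hu))))
  have Jm : ∀ r u, 2 ≤ r → J r ≤ J (r + u) := fun r u hr => by
    rcases Nat.eq_zero_or_pos u with rfl | h
    · rfl
    · exact (J2 r hr).le.trans
        ((Nat.pow_le_pow_right (by norm_num) (by omega)).trans (J1 (r + u) (by omega)))
  have lam : ∀ r, 2 ≤ r → ∀ v, RB v (Kp (L (J r)) (K (J r))) →
      (F.ν v).real (SB θ (D (J r)))ᶜ ≤ 92 * (1 / 2 ^ r) := by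
    intro r hr v hv
    have := F.fin v
    have cov : (SB θ (D (J r)))ᶜ ⊆
        ⋃ u : ℕ, {z | |z.2| ≤ hi (J (r + u)) ∧ z ∉ SB θ (D (J (r + u)))} := by
      intro z hz
      by_contra hcon
      simp only [mem_iUnion, mem_ofPred_eq, not_exists, not_and, not_not] at hcon
      have big : ∀ u, z ∉ SB θ (D (J (r + u))) → (hi (J (r + u)) : ℤ) < |z.2| := fun u h =>
        not_le.1 fun h' => h (hcon u h')
      have all : ∀ u, z ∉ SB θ (D (J (r + u))) := fun u => by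
        induction u with
        | zero => exact hz
        | succ u ih =>
          have b1 := big u ih
          have g1 := J1 (r + u) (by omega)
          have g2 := J2 (r + (u + 1)) (by omega)
          have b2 := hD.cover _ (ge4096 (by omega) g1) (J (r + (u + 1))) (by
            have : 64 ^ (r + (u + 1) + 1) = 4096 * 64 ^ (r + u) := by ring
            omega)
          exact not_SB (hD.lev _ (ge4096 (by omega) (J1 (r + (u + 1)) (by omega)))).blk.hit
            (by omega)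
      have b1 := big _ (all z.2.natAbs)
      have b2 := hD.cover _ (ge4096 (by omega) (J1 (r + z.2.natAbs) (by omega)))
        (J (r + z.2.natAbs)) (by omega)
      have b3 := JL (r + z.2.natAbs) (by omega)
      rw [← Int.natCast_natAbs] at b1
      omega
    have hs : Summable fun u : ℕ => 46 * (1 / 2 ^ r) * ((1 : ℝ) / 2) ^ u :=
      summable_geometric_two.mul_left _
    refine ENNReal.toReal_le_of_le_ofReal (by positivity) ?_
    calc _ ≤ ∑' u : ℕ, F.ν v {z | |z.2| ≤ hi (J (r + u)) ∧ z ∉ SB θ (D (J (r + u)))} :=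
          (measure_mono cov).trans (measure_iUnion_le _)
      _ ≤ ∑' u : ℕ, ENNReal.ofReal (46 * (1 / 2 ^ r) * ((1 : ℝ) / 2) ^ u) := by
          refine ENNReal.tsum_le_tsum fun u => ?_
          rw [← ofReal_measureReal]
          refine ENNReal.ofReal_le_ofReal ((level hH F hD (by omega) (J1 (r + u) (by omega))
            (J2 (r + u) (by omega)) (ge4096 hr (J1 r hr)) (Jm r u hr) (J3 (r + u) (by omega))
            hv).trans (le_of_eq ?_))
          rw [pow_add, one_div_pow]; field_simp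
      _ = _ := by
          rw [← ENNReal.ofReal_tsum_of_nonneg (fun u => by positivity) hs, tsum_mul_left,
            tsum_geometric_two]
          congr 1; ring
  have key : ∀ γ : ℝ, 0 < γ → γ ≤ 1 → t * (1 - t) ≤ 201 * γ := by
    intro γ g0 g1
    obtain ⟨c, c0, hc⟩ := hE θ (F.ρ 0) (γ ^ 3) hθ hρ (by positivity)
    obtain ⟨r, hr⟩ := exists_nat_ge (2 + 20 / c + 1 / γ ^ 3 + 92 / γ)
    have p1 : 0 < 20 / c := by positivity
    have p2 : 0 < 1 / γ ^ 3 := by positivity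
    have p3 : 0 < 92 / γ := by positivity
    have r2 : 2 ≤ r := by exact_mod_cast (by linarith : (2 : ℝ) ≤ r)
    have rL : (r : ℝ) ≤ L (J r) := by exact_mod_cast JL r r2
    have r3 : (r : ℝ) ≤ 2 ^ r := by exact_mod_cast (Nat.lt_two_pow_self).le
    have q1 : 20 / (L (J r) : ℝ) ≤ c := by
      rw [div_le_iff₀ (by linarith), mul_comm, ← div_le_iff₀ c0]; linarith
    have q2 : 1 ≤ γ ^ 3 * L (J r) := by
      rw [mul_comm, ← div_le_iff₀ (by positivity)]; linarith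
    have q3 : 92 * (1 / (2 : ℝ) ^ r) ≤ γ := by
      rw [mul_one_div, div_le_iff₀ (by positivity), mul_comm, ← div_le_iff₀ g0]; linarith
    have := hfin (J r) (ge4096 r2 (J1 r r2)) γ _ g0 g1 q2
      (fun ψ h1 h2 => hc ψ h1 (h2.trans q1)) (lam r r2)
    linarith
  by_contra h
  push Not at h
  have := key (min 1 (t * (1 - t) / 402)) (lt_min one_pos (by positivity)) (min_le_left _ _)
  have := min_le_right 1 (t * (1 - t) / 402)
  linarith

end Crest.Agent.H2.RI
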